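import Mathlib

open scoped ContDiff
open Real

namespace Vale.Agent.Results.P205.InvariantTorus

/-- primitive of a smooth function is smooth -/
lemma contDiff_primitive {s : ℝ → ℝ} (hs : ContDiff ℝ ∞ s) :
    ContDiff ℝ ∞ (fun r : ℝ => ∫ x in (0:ℝ)..r, s x) := by
  rw [contDiff_infty_iff_deriv]
  have hc : Continuous s := hs.continuous
  refine ⟨?_, ?_⟩
  · intro r
    exact (intervalIntegral.integral_hasDerivAt_right (hc.intervalIntegrable _ _)
      (hc.stronglyMeasurableAtFilter _ _) hc.continuousAt).differentiableAt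
  · have : deriv (fun r : ℝ => ∫ x in (0:ℝ)..r, s x) = s := by
      funext r
      exact hc.deriv_integral s 0 r
    rw [this]; exact hs

lemma hasDerivAt_primitive {s : ℝ → ℝ} (hc : Continuous s) (r : ℝ) :
    HasDerivAt (fun r : ℝ => ∫ x in (0:ℝ)..r, s x) (s r) r :=
  intervalIntegral.integral_hasDerivAt_right (hc.intervalIntegrable _ _)
      (hc.stronglyMeasurableAtFilter _ _) hc.continuousAt

lemma primitive_add_period {s : ℝ → ℝ} {L : ℝ} (hc : Continuous s) (hp : Function.Periodic s L)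
    (r : ℝ) : (∫ x in (0:ℝ)..(r + L), s x) = (∫ x in (0:ℝ)..r, s x) + ∫ x in (0:ℝ)..L, s x := by
  have := hp.intervalIntegral_add_eq_add 0 r (fun a b => hc.intervalIntegrable a b)
  simpa using this

lemma periodic_deriv {a : ℝ → ℝ} {L : ℝ} (hp : Function.Periodic a L) :
    Function.Periodic (deriv a) L := by
  intro r
  rw [← deriv_comp_add_const a L r]
  congr 1
  funext x
  exact hp x

lemma periodic_bound {g : ℝ → ℝ} {L : ℝ} (hL : 0 < L) (hp : Function.Periodic g L)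
    (hc : Continuous g) : ∃ C : ℝ, ∀ r, g r ≤ C := by
  have hb := hp.isBounded_of_continuous hL.ne' hc
  obtain ⟨C, hC⟩ := hb.bddAbove
  exact ⟨C, fun r => hC ⟨r, rfl⟩⟩


lemma comp_cos {u c : ℝ → ℝ} {u' c' : ℝ} (k : ℝ) (p : ℝ × ℝ)
    (hu : HasDerivAt u u' p.1) (hc : HasDerivAt c c' p.1) :
    HasFDerivAt (fun x : ℝ × ℝ => u x.1 * cos (k * (x.2 + c x.1)))
      ((u' * cos (k * (p.2 + c p.1)) - u p.1 * sin (k * (p.2 + c p.1)) * k * c') •
          ContinuousLinearMap.fst ℝ ℝ ℝ +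
        (- (u p.1 * sin (k * (p.2 + c p.1)) * k)) • ContinuousLinearMap.snd ℝ ℝ ℝ) p := by
  have h1 : HasFDerivAt (fun x : ℝ × ℝ => u x.1) (u' • ContinuousLinearMap.fst ℝ ℝ ℝ) p :=
    hu.comp_hasFDerivAt p hasFDerivAt_fst
  have h2 : HasFDerivAt (fun x : ℝ × ℝ => c x.1) (c' • ContinuousLinearMap.fst ℝ ℝ ℝ) p :=
    hc.comp_hasFDerivAt p hasFDerivAt_fst
  have h3 : HasFDerivAt (fun x : ℝ × ℝ => k * (x.2 + c x.1))
      (k • (ContinuousLinearMap.snd ℝ ℝ ℝ + c' • ContinuousLinearMap.fst ℝ ℝ ℝ)) p :=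
    (hasFDerivAt_snd.add h2).const_mul k
  have h4 := h1.mul h3.cos
  refine h4.congr_fderiv ?_
  ext <;> simp <;> ring

lemma comp_sin {u c : ℝ → ℝ} {u' c' : ℝ} (k : ℝ) (p : ℝ × ℝ)
    (hu : HasDerivAt u u' p.1) (hc : HasDerivAt c c' p.1) :
    HasFDerivAt (fun x : ℝ × ℝ => u x.1 * sin (k * (x.2 + c x.1)))
      ((u' * sin (k * (p.2 + c p.1)) + u p.1 * cos (k * (p.2 + c p.1)) * k * c') •
          ContinuousLinearMap.fst ℝ ℝ ℝ +
        (u p.1 * cos (k * (p.2 + c p.1)) * k) • ContinuousLinearMap.snd ℝ ℝ ℝ) p := by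
  have h1 : HasFDerivAt (fun x : ℝ × ℝ => u x.1) (u' • ContinuousLinearMap.fst ℝ ℝ ℝ) p :=
    hu.comp_hasFDerivAt p hasFDerivAt_fst
  have h2 : HasFDerivAt (fun x : ℝ × ℝ => c x.1) (c' • ContinuousLinearMap.fst ℝ ℝ ℝ) p :=
    hc.comp_hasFDerivAt p hasFDerivAt_fst
  have h3 : HasFDerivAt (fun x : ℝ × ℝ => k * (x.2 + c x.1))
      (k • (ContinuousLinearMap.snd ℝ ℝ ℝ + c' • ContinuousLinearMap.fst ℝ ℝ ℝ)) p :=
    (hasFDerivAt_snd.add h2).const_mul k
  have h4 := h1.mul h3.sin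
  refine h4.congr_fderiv ?_
  ext <;> simp <;> ring

lemma comp_cos2 {σ : ℝ → ℝ} {σ' : ℝ} (R m : ℝ) (p : ℝ × ℝ)
    (hσ : HasDerivAt σ σ' p.1) :
    HasFDerivAt (fun x : ℝ × ℝ => R * cos (m * σ x.1))
      ((- (R * sin (m * σ p.1) * m * σ')) • ContinuousLinearMap.fst ℝ ℝ ℝ) p := by
  have h2 : HasFDerivAt (fun x : ℝ × ℝ => σ x.1) (σ' • ContinuousLinearMap.fst ℝ ℝ ℝ) p :=
    hσ.comp_hasFDerivAt p hasFDerivAt_fst
  have h4 := ((h2.const_mul m).cos).const_mul R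
  refine h4.congr_fderiv ?_
  ext <;> simp <;> ring

lemma comp_sin2 {σ : ℝ → ℝ} {σ' : ℝ} (R m : ℝ) (p : ℝ × ℝ)
    (hσ : HasDerivAt σ σ' p.1) :
    HasFDerivAt (fun x : ℝ × ℝ => R * sin (m * σ x.1))
      ((R * cos (m * σ p.1) * m * σ') • ContinuousLinearMap.fst ℝ ℝ ℝ) p := by
  have h2 : HasFDerivAt (fun x : ℝ × ℝ => σ x.1) (σ' • ContinuousLinearMap.fst ℝ ℝ ℝ) p :=
    hσ.comp_hasFDerivAt p hasFDerivAt_fst
  have h4 := ((h2.const_mul m).sin).const_mul R
  refine h4.congr_fderiv ?_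
  ext <;> simp <;> ring

lemma alg_identity (A' U k b cs sn R m s cs2 sn2 G E B v1 v2 w1 w2 : ℝ)
    (h1 : cs ^ 2 + sn ^ 2 = 1) (h2 : cs2 ^ 2 + sn2 ^ 2 = 1) (hRm : R * m = 1)
    (hG : G = (U * k) ^ 2) (hB : B = b * G) (hE : E = s ^ 2 + b * B + A' ^ 2) :
    ((A' * cs - U * sn * k * b) * w1 + -(U * sn * k) * w2) *
          ((A' * cs - U * sn * k * b) * v1 + -(U * sn * k) * v2) +
        ((A' * sn + U * cs * k * b) * w1 + U * cs * k * w2) *
          ((A' * sn + U * cs * k * b) * v1 + U * cs * k * v2) +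
      -(R * sn2 * m * s) * w1 * (-(R * sn2 * m * s) * v1) +
      R * cs2 * m * s * w1 * (R * cs2 * m * s * v1) =
    E * (v1 * w1) + B * (v1 * w2 + v2 * w1) + G * (v2 * w2) := by
  subst hE hB hG
  linear_combination ((A' ^ 2 + (U * k) ^ 2 * b ^ 2) * v1 * w1 +
    (U * k) ^ 2 * b * (v1 * w2 + v2 * w1) + (U * k) ^ 2 * v2 * w2) * h1 +
    s ^ 2 * v1 * w1 * (R * m) ^ 2 * h2 + s ^ 2 * v1 * w1 * (R * m + 1) * hRm

/-- Every smooth Riemannian metric `E dr^2 + 2 B dr dθ + G dθ^2` on the torus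
`ℝ^2 / (L ℤ × 2π ℤ)` whose coefficients depend only on `r` and whose twist
`∫_0^L B/G` is a rational multiple of `2π` admits a smooth isometric immersion into `ℝ^4`. -/
theorem result (L : ℝ) (hL : 0 < L) (E B G : ℝ → ℝ)
    (hE : ContDiff ℝ ∞ E) (hB : ContDiff ℝ ∞ B) (hG : ContDiff ℝ ∞ G)
    (hEp : Function.Periodic E L) (hBp : Function.Periodic B L) (hGp : Function.Periodic G L)
    (hGpos : ∀ r, 0 < G r) (hdet : ∀ r, 0 < E r * G r - B r ^ 2)
    (htwist : ∃ q : ℚ, ∫ r in (0:ℝ)..L, B r / G r = 2 * π * (q : ℝ)) :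
    ∃ Φ : ℝ × ℝ → EuclideanSpace ℝ (Fin 4), ContDiff ℝ ∞ Φ ∧
      (∀ r θ, Φ (r + L, θ) = Φ (r, θ)) ∧ (∀ r θ, Φ (r, θ + 2 * π) = Φ (r, θ)) ∧
      ∀ p v w : ℝ × ℝ, inner ℝ (fderiv ℝ Φ p v) (fderiv ℝ Φ p w) =
        E p.1 * (v.1 * w.1) + B p.1 * (v.1 * w.2 + v.2 * w.1) + G p.1 * (v.2 * w.2) := by
  obtain ⟨q, hq⟩ := htwist
  -- the radius function
  set a : ℝ → ℝ := fun r => √(G r) with ha
  have haS : ContDiff ℝ ∞ a := hG.sqrt (fun r => (hGpos r).ne')
  have hapos : ∀ r, 0 < a r := fun r => Real.sqrt_pos.2 (hGpos r)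
  have hasq : ∀ r, a r ^ 2 = G r := fun r => Real.sq_sqrt (hGpos r).le
  have hap : Function.Periodic a L := fun r => by simp only [ha, hGp r]
  have ha'S : ContDiff ℝ ∞ (deriv a) := (contDiff_infty_iff_deriv.1 haS).2
  have ha'p : Function.Periodic (deriv a) L := periodic_deriv hap
  -- reduced first coefficient
  set D : ℝ → ℝ := fun r => E r - B r ^ 2 / G r with hD
  have hDS : ContDiff ℝ ∞ D := hE.sub ((hB.pow 2).div hG (fun r => (hGpos r).ne'))
  have hDpos : ∀ r, 0 < D r := by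
    intro r
    have h1 : D r = (E r * G r - B r ^ 2) / G r := by
      simp only [hD]; field_simp [(hGpos r).ne']
    rw [h1]; exact div_pos (hdet r) (hGpos r)
  have hDp : Function.Periodic D L := fun r => by simp only [hD, hEp r, hBp r, hGp r]
  -- choice of the winding number k
  obtain ⟨C, hC⟩ := periodic_bound (g := fun r => deriv a r ^ 2 / D r) hL
    (fun r => by simp only [ha'p r, hDp r])
    ((ha'S.continuous.pow 2).div hDS.continuous (fun r => (hDpos r).ne'))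
  obtain ⟨n, hn⟩ := exists_nat_gt (max C 1)
  have hn1 : (1:ℝ) < n := lt_of_le_of_lt (le_max_right _ _) hn
  have hnC : C < n := lt_of_le_of_lt (le_max_left _ _) hn
  set k : ℝ := (q.den : ℝ) * n with hk
  have hden1 : (1:ℝ) ≤ q.den := by exact_mod_cast q.pos
  have hkn : (n:ℝ) ≤ k := by
    rw [hk]; nlinarith
  have hkpos : 0 < k := by linarith
  have hk2 : C < k ^ 2 := by nlinarith
  have hspos : ∀ r, 0 < D r - deriv a r ^ 2 / k ^ 2 := by
    intro r
    have h1 : deriv a r ^ 2 / D r < k ^ 2 := lt_of_le_of_lt (hC r) hk2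
    rw [div_lt_iff₀ (hDpos r)] at h1
    have h2 : deriv a r ^ 2 / k ^ 2 < D r := by
      rw [div_lt_iff₀ (by positivity)]; linarith
    linarith
  set s : ℝ → ℝ := fun r => √(D r - deriv a r ^ 2 / k ^ 2) with hs
  have hsS : ContDiff ℝ ∞ s :=
    (hDS.sub ((ha'S.pow 2).div_const _)).sqrt (fun r => (hspos r).ne')
  have hs0 : ∀ r, 0 < s r := fun r => Real.sqrt_pos.2 (hspos r)
  have hssq : ∀ r, s r ^ 2 = D r - deriv a r ^ 2 / k ^ 2 := fun r => Real.sq_sqrt (hspos r).le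
  have hsp : Function.Periodic s L := fun r => by simp only [hs, hDp r, ha'p r]
  set σ : ℝ → ℝ := fun r => ∫ x in (0:ℝ)..r, s x with hσ
  have hσS : ContDiff ℝ ∞ σ := contDiff_primitive hsS
  set S : ℝ := ∫ x in (0:ℝ)..L, s x with hSdef
  have hSpos : 0 < S :=
    intervalIntegral.intervalIntegral_pos_of_pos (hsS.continuous.intervalIntegrable _ _) hs0 hL
  have hσp : ∀ r, σ (r + L) = σ r + S := fun r => primitive_add_period hsS.continuous hsp r
  -- the shear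
  set b : ℝ → ℝ := fun r => B r / G r with hb
  have hbS : ContDiff ℝ ∞ b := hB.div hG (fun r => (hGpos r).ne')
  have hbp : Function.Periodic b L := fun r => by simp only [hb, hBp r, hGp r]
  set c : ℝ → ℝ := fun r => ∫ x in (0:ℝ)..r, b x with hc
  have hcS : ContDiff ℝ ∞ c := contDiff_primitive hbS
  have hcp : ∀ r, c (r + L) = c r + 2 * π * (q : ℝ) := fun r => by
    rw [← hq]; exact primitive_add_period hbS.continuous hbp r
  have hkq : k * (q : ℝ) = ((n * q.num : ℤ) : ℝ) := by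
    have h1 : (q : ℝ) = (q.num : ℝ) / (q.den : ℝ) := by
      exact_mod_cast (Rat.num_div_den q).symm
    have h2 : (q.den : ℝ) ≠ 0 := by positivity
    rw [hk, h1]; push_cast; field_simp
  set u : ℝ → ℝ := fun r => a r / k with hu
  have huS : ContDiff ℝ ∞ u := haS.div_const _
  set R : ℝ := S / (2 * π) with hR
  set m : ℝ := 2 * π / S with hm
  have hRm : R * m = 1 := by
    rw [hR, hm]; field_simp
  have hfst : ContDiff ℝ ∞ (fun x : ℝ × ℝ => x.1) := contDiff_fst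
  have hsnd : ContDiff ℝ ∞ (fun x : ℝ × ℝ => x.2) := contDiff_snd
  have harg : ContDiff ℝ ∞ (fun x : ℝ × ℝ => k * (x.2 + c x.1)) :=
    contDiff_const.mul (hsnd.add (hcS.comp hfst))
  have harg2 : ContDiff ℝ ∞ (fun x : ℝ × ℝ => m * σ x.1) :=
    contDiff_const.mul (hσS.comp hfst)
  have hΦ0 : ContDiff ℝ ∞ (fun x : ℝ × ℝ => u x.1 * cos (k * (x.2 + c x.1))) :=
    (huS.comp hfst).mul harg.cos
  have hΦ1 : ContDiff ℝ ∞ (fun x : ℝ × ℝ => u x.1 * sin (k * (x.2 + c x.1))) :=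
    (huS.comp hfst).mul harg.sin
  have hΦ2 : ContDiff ℝ ∞ (fun x : ℝ × ℝ => R * cos (m * σ x.1)) :=
    contDiff_const.mul harg2.cos
  have hΦ3 : ContDiff ℝ ∞ (fun x : ℝ × ℝ => R * sin (m * σ x.1)) :=
    contDiff_const.mul harg2.sin
  set Φ : ℝ × ℝ → EuclideanSpace ℝ (Fin 4) := fun x =>
    !₂[u x.1 * cos (k * (x.2 + c x.1)), u x.1 * sin (k * (x.2 + c x.1)),
      R * cos (m * σ x.1), R * sin (m * σ x.1)] with hΦ
  have hΦS : ContDiff ℝ ∞ Φ := by
    rw [contDiff_euclidean]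
    intro i
    fin_cases i
    · simpa [hΦ] using hΦ0
    · simpa [hΦ] using hΦ1
    · simpa [hΦ] using hΦ2
    · simpa [hΦ] using hΦ3
  refine ⟨Φ, hΦS, ?_, ?_, ?_⟩
  · intro r θ
    have e1 : k * (θ + c (r + L)) = k * (θ + c r) + ((n * q.num : ℤ) : ℝ) * (2 * π) := by
      rw [hcp r, ← hkq]; ring
    have e2 : m * σ (r + L) = m * σ r + 2 * π := by
      rw [hσp r, hm]; field_simp
    have e3 : u (r + L) = u r := by simp only [hu, hap r]
    simp only [hΦ, e1, e2, e3, Real.cos_add_int_mul_two_pi, Real.sin_add_int_mul_two_pi,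
      Real.cos_add_two_pi, Real.sin_add_two_pi]
  · intro r θ
    have e1 : k * (θ + 2 * π + c r) = k * (θ + c r) + ((q.den * n : ℕ) : ℝ) * (2 * π) := by
      rw [hk]; push_cast; ring
    simp only [hΦ, e1, Real.cos_add_nat_mul_two_pi, Real.sin_add_nat_mul_two_pi]
  · intro p v w
    have hdu : HasDerivAt u (deriv a p.1 / k) p.1 :=
      ((haS.differentiable (by simp)) p.1).hasDerivAt.div_const k
    have hdc : HasDerivAt c (b p.1) p.1 := hasDerivAt_primitive hbS.continuous p.1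
    have hdσ : HasDerivAt σ (s p.1) p.1 := hasDerivAt_primitive hsS.continuous p.1
    have hdΦ : HasFDerivAt Φ (fderiv ℝ Φ p) p :=
      ((hΦS.differentiable (by simp)) p).hasFDerivAt
    have key : ∀ i : Fin 4, HasFDerivAt (fun x => Φ x i)
        ((EuclideanSpace.proj i : EuclideanSpace ℝ (Fin 4) →L[ℝ] ℝ).comp (fderiv ℝ Φ p)) p :=
      fun i => (EuclideanSpace.proj i : EuclideanSpace ℝ (Fin 4) →L[ℝ] ℝ).hasFDerivAt.comp p hdΦ
    have k0 := (key 0).unique (comp_cos k p hdu hdc)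
    have k1 := (key 1).unique (comp_sin k p hdu hdc)
    have k2 := (key 2).unique (comp_cos2 R m p hdσ)
    have k3 := (key 3).unique (comp_sin2 R m p hdσ)
    have c0 : ∀ z : ℝ × ℝ, (fderiv ℝ Φ p z) 0 = _ := fun z => congrArg (fun T => T z) k0
    have c1 : ∀ z : ℝ × ℝ, (fderiv ℝ Φ p z) 1 = _ := fun z => congrArg (fun T => T z) k1
    have c2 : ∀ z : ℝ × ℝ, (fderiv ℝ Φ p z) 2 = _ := fun z => congrArg (fun T => T z) k2
    have c3 : ∀ z : ℝ × ℝ, (fderiv ℝ Φ p z) 3 = _ := fun z => congrArg (fun T => T z) k3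
    rw [PiLp.inner_apply, Fin.sum_univ_four]
    simp only [c0, c1, c2, c3]
    simp only [_root_.add_apply, _root_.smul_apply, ContinuousLinearMap.coe_fst', ContinuousLinearMap.coe_snd', smul_eq_mul, RCLike.inner_apply, conj_trivial]
    refine alg_identity _ _ _ _ _ _ _ _ _ _ _ _ _ _ _ _ _ _ (Real.cos_sq_add_sin_sq _)
      (Real.cos_sq_add_sin_sq _) hRm ?_ ?_ ?_
    · rw [← hasq p.1, hu]; field_simp
    · simp only [hb]; field_simp [(hGpos p.1).ne']
    · rw [hssq p.1]; simp only [hD, hb]; field_simp [(hGpos p.1).ne']; ring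

end Vale.Agent.Results.P205.InvariantTorus
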